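import Vale.Agent.P181.R2.H959.AllY
import Vale.Agent.P181.R2.H207.KFinal
import Vale.Agent.P181.R2.H130.Grow5
import Vale.Agent.P181.R2.H959.VNine

set_option autoImplicit false

namespace Vale.Agent.Results.P181.FewRowsInterior

open Vale.Agent.P181 Vale.Agent.P181.H280 Vale.Agent.P181.FR

/-- **Foulkes' inequality for partitions with at most `m = n + 3` rows.** Write `F a b λ` for
`mult_λ Sym^a(Sym^b ℂ^m) ≤ mult_λ Sym^b(Sym^a ℂ^m)`.
(1) For every `m ≥ 3` there is `C` such that for all `a`, `b` and all `λ` with `m` entries `F a b λ`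
holds
(i) if `b < 2 ^ L`, `1 ≤ L` and `C a ^ (3 m - 4) L ^ (3 m - 6) ≤ b ^ (2 m - 2)`;
(ii) if `b < 2 ^ L`, `1 ≤ L`, `C a L ^ 2 ≤ b` and
`C a ^ (3 m - 5) L ^ (3 m - 6) ≤ b ^ (m - 1) λ_2 ^ (m - 2)`;
(iii) if `b < s ^ q`, `1 ≤ q`, `C q s ≤ a`, `C a q ≤ b`, `C a q ^ 2 s ≤ λ_3` and
`C (a q) ^ 3 s ≤ λ_2 λ_3`.
(2) For all `m ≥ 3` and `κ > 0` there is `K` such that `F a b λ` holds for all `a`, all
`b ≥ a + K` and all `λ` with sum `a b`, gaps `λ_i - λ_(i+1) ≥ κ a b` and `λ_m ≥ κ a b`.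
(3) For all `m ≥ 3` and `ε > 0` there is `K` such that for all `a ≥ 1` and all `b ≥ a + K` at most
a proportion `ε` of the partitions `λ` of `a b` with at most `m` parts violates `F a b λ`.
(4) For every `δ > 0` there are `κ, C > 0` such that for `3 ≤ m ≤ a ^ κ` and `b ≥ (1 + δ) a` at
most a proportion `C a ^ (-κ)` of these partitions violates `F a b λ`.
(5) For all `m ≥ 3` and `δ, κ > 0` there is `A` such that `F a b λ` holds for all `a ≥ A`, all
`b ≥ (1 + δ) a` and all `λ` with `λ_m ≥ κ a b`. -/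
theorem result :
    (∀ n : ℕ, ∃ C : ℕ, ∀ (a b : ℕ) (lam : Fin (n + 3) → ℕ),
      (∀ L : ℕ, 1 ≤ L → b < 2 ^ L →
        C * (a ^ (3 * n + 5) * L ^ (3 * n + 3)) ≤ b ^ (2 * n + 4) →
        plethMult a b (n + 3) lam ≤ plethMult b a (n + 3) lam) ∧
      (∀ L : ℕ, 1 ≤ L → b < 2 ^ L → C * (a * L ^ 2) ≤ b →
        C * (a ^ (3 * n + 4) * L ^ (3 * n + 3)) ≤ b ^ (n + 2) * lam 1 ^ (n + 1) →
        plethMult a b (n + 3) lam ≤ plethMult b a (n + 3) lam) ∧
      (∀ q s : ℕ, 1 ≤ q → b < s ^ q → C * (q * s) ≤ a → C * (a * q) ≤ b →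
        C * (a * q ^ 2 * s) ≤ lam 2 → C * ((a * q) ^ 3 * s) ≤ lam 1 * lam 2 →
        plethMult a b (n + 3) lam ≤ plethMult b a (n + 3) lam)) ∧
    (∀ (n : ℕ) (κ : ℝ), 0 < κ → ∃ K : ℕ, ∀ (a b : ℕ) (lam : Fin (n + 3) → ℕ),
      a + K ≤ b → ∑ i, lam i = a * b →
      (∀ i : Fin (n + 2), (lam i.succ : ℝ) + κ * (a * b) ≤ lam i.castSucc) →
      κ * (a * b) ≤ lam (Fin.last _) →
      plethMult a b (n + 3) lam ≤ plethMult b a (n + 3) lam) ∧
    (∀ (n : ℕ) (ε : ℝ), 0 < ε → ∃ K : ℕ, ∀ a b : ℕ, 1 ≤ a → a + K ≤ b →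
      ({lam ∈ (Parts (n + 3) (a * b) : Set (Fin (n + 3) → Fin (a * b + 1))) |
        ¬ plethMult a b (n + 3) (fun i => lam i) ≤
          plethMult b a (n + 3) (fun i => lam i)}.ncard : ℝ) ≤
        ε * (Parts (n + 3) (a * b)).card) ∧
    (∀ δ : ℝ, 0 < δ → ∃ κ C : ℝ, 0 < κ ∧ 0 < C ∧ ∀ n a b : ℕ,
      1 ≤ a → (n : ℝ) + 3 ≤ (a : ℝ) ^ κ → (1 + δ) * a ≤ b →
      ({lam ∈ (Parts (n + 3) (a * b) : Set (Fin (n + 3) → Fin (a * b + 1))) |
        ¬ plethMult a b (n + 3) (fun i => lam i) ≤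
          plethMult b a (n + 3) (fun i => lam i)}.ncard : ℝ) ≤
        C * (a : ℝ) ^ (-κ) * (Parts (n + 3) (a * b)).card) ∧
    (∀ (n : ℕ) (δ κ : ℝ), 0 < δ → 0 < κ → ∃ A : ℕ, ∀ (a b : ℕ) (lam : Fin (n + 3) → ℕ),
      A ≤ a → (1 + δ) * a ≤ b → κ * (a * b) ≤ lam (Fin.last _) →
      plethMult a b (n + 3) lam ≤ plethMult b a (n + 3) lam) := by
  refine ⟨fun n => ?_, fun n _ h => Vale.Agent.P181.KT.final_K n h,
    fun n _ h => Vale.Agent.P181.KT.almost_all_K n h, fun _ h => almost_all_grow h,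
    fun n _ _ h h' => Vale.Agent.P181.VT.nine n h h'⟩
  obtain ⟨C1, h1⟩ := all_rows_log n
  obtain ⟨C2, h2⟩ := all_wide_log n
  obtain ⟨C3, h3⟩ := all_mix_qs n
  have e1 : C1 ≤ C1 + C2 + C3 + 1 := by omega
  have e2 : C2 ≤ C1 + C2 + C3 + 1 := by omega
  have e3 : C3 ≤ C1 + C2 + C3 + 1 := by omega
  refine ⟨C1 + C2 + C3 + 1, fun a b lam => ⟨fun L hL hb h => ?_, fun L hL hb h h' => ?_,
    fun q s hq hb hc h h' h'' => ?_⟩⟩
  · rcases Nat.eq_zero_or_pos b with hb0 | hb0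
    · have ha0 : a = 0 := by
        rcases Nat.eq_zero_or_pos a with ha | ha
        · exact ha
        · exfalso
          have hz : b ^ (2 * n + 4) = 0 := by rw [hb0]; exact zero_pow (by omega)
          have hp : 0 < (C1 + C2 + C3 + 1) * (a ^ (3 * n + 5) * L ^ (3 * n + 3)) :=
            Nat.mul_pos (Nat.succ_pos _) (Nat.mul_pos (pow_pos ha _) (pow_pos hL _))
          omega
      rw [ha0, hb0]
    · exact h1 a b L lam hb0 hb ((Nat.mul_le_mul_right _ e1).trans h)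
  · exact h2 a b L lam hL hb ((Nat.mul_le_mul_right _ e2).trans h)
      ((Nat.mul_le_mul_right _ e2).trans h')
  · by_cases hs : 2 ≤ s
    · exact h3 a b q s lam hq hs hb ((Nat.mul_le_mul_right _ e3).trans hc)
        ((Nat.mul_le_mul_right _ e3).trans h) ((Nat.mul_le_mul_right _ e3).trans h')
        ((Nat.mul_le_mul_right _ e3).trans h'')
    · have hb0 : b = 0 := by
        have h4 : s ^ q ≤ 1 ^ q := Nat.pow_le_pow_left (by omega) q
        rw [one_pow] at h4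
        omega
      have ha0 : a = 0 := by
        rcases Nat.eq_zero_or_pos a with ha | ha
        · exact ha
        · exfalso
          have hp : 0 < (C1 + C2 + C3 + 1) * (a * q) :=
            Nat.mul_pos (Nat.succ_pos _) (Nat.mul_pos ha hq)
          omega
      rw [ha0, hb0]

end Vale.Agent.Results.P181.FewRowsInterior
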