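import Vale.Agent.P181.R2.H780.PartCond
import Vale.Agent.P181.R2.H397.Final
import Vale.Agent.P181.H421.Defs

set_option autoImplicit false

open Vale.Agent.P181 Vale.Agent.P181.H421 Vale.Agent.P181.H280

namespace Vale.Agent.Results.P181.PartialRowSums

/-- **Foulkes' conjecture when some partial sum of the rows below the first is small, and when the
middle rows are one less than a prime.** Let `V = ℂ^(n+2)`, `λ = (λ_0, …, λ_(n+1))` and
`ρ_j = λ_1 + ⋯ + λ_j` (the rows after the first one). The canonical (Foulkes-Howe) map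
`Sym^a(Sym^b V) → Sym^b(Sym^a V)` is injective on the highest weight vectors of weight `λ`, and the
multiplicity of `S_λ V` in `Sym^a(Sym^b V)` is at most its multiplicity in `Sym^b(Sym^a V)`,
whenever one of the following holds:

* `ρ_j ≤ j (2b - a(a-1))` for some `j ≥ 1` with `b + (j-1)(a-1) ≤ a(a-1)`;
* `b = s + a(a-1)/2` and for every `2 ≤ i ≤ a` with `2s < (i-1)(i-2)` there is `j ≤ a` with
  `ρ_j < min(j, a-i+1) (s + (i-1)(i-2)/2 + 1) + ∑_(l = 1)^(j-(a-i+1)) (s + i(i-1)/2 + 1 - l(i-1))⁺`.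

If `p > a` is a prime, `λ_1 = ⋯ = λ_(a-2) = p - 1 ≥ λ_(a-1)` and `λ_i = 0` for `i ≥ a`, then the
inequality of multiplicities holds for every `b`, and the canonical map is injective on the highest
weight vectors of weight `λ` if `b < p`. -/
theorem result (a b n : ℕ) :
    ∃ Ψ : Pleth a b (n + 2) →ₗ[ℂ] Pleth b a (n + 2),
      (∀ v : Fin a → Fin b → (Fin (n + 2) → ℂ), Ψ (prodRows v) = sumCols v) ∧ IsEquivariant Ψ ∧
      (∀ (lam : Fin (n + 2) → ℕ) (ρ : ℕ → ℕ),
        (∀ j, ρ j = ∑ t ∈ Finset.univ.filter (fun t : Fin (n + 2) => t ≠ 0 ∧ (t : ℕ) ≤ j), lam t) →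
        ((∃ j : ℕ, 1 ≤ j ∧ b + (j - 1) * (a - 1) ≤ a * (a - 1) ∧
            ρ j + j * (a * (a - 1)) ≤ j * (2 * b)) ∨
          (∃ s : ℕ, b = s + a * (a - 1) / 2 ∧
            ∀ i : ℕ, 2 ≤ i → i ≤ a → 2 * s < (i - 1) * (i - 2) → ∃ j, j ≤ a ∧
              ρ j < min j (a - i + 1) * (s + (i - 1) * (i - 2) / 2 + 1) +
                ∑ l ∈ Finset.range (j - (a - i + 1)),
                  (s + i * (i - 1) / 2 + 1 - (l + 1) * (i - 1)))) →
        InjOnHW Ψ lam ∧ plethMult a b (n + 2) lam ≤ plethMult b a (n + 2) lam) ∧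
      (∀ (lam : Fin (n + 2) → ℕ) (p : ℕ), p.Prime → 1 ≤ a → a < p → a ≤ n + 2 →
        (∀ i : Fin (n + 2), (i : ℕ) ≠ 0 → lam i ≤ p - 1) →
        (∀ i : Fin (n + 2), (i : ℕ) ≠ 0 → (i : ℕ) + 1 < a → lam i = p - 1) →
        (∀ i : Fin (n + 2), a ≤ (i : ℕ) → lam i = 0) →
        (b < p → InjOnHW Ψ lam) ∧ plethMult a b (n + 2) lam ≤ plethMult b a (n + 2) lam) := by
  refine ⟨foulkesHowe a b (Fin (n + 2) → ℂ), foulkesHowe_tprod a b,
    fun g x => LinearMap.congr_fun (foulkesHowe_equivariant a b (Matrix.toLin' g)) x,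
    fun lam ρ hρ hcond => ?_, fun lam p hp ha hap hn hle hmid hend => ⟨fun hb x hx h0 => ?_, ?_⟩⟩
  · obtain rfl : ρ = H780.rho lam := funext hρ
    obtain ⟨s, hs, hc⟩ : ∃ s, b = s + a * (a - 1) / 2 ∧ H780.PartCond a s (H780.rho lam) := by
      rcases hcond with ⟨j, hj, hjb, h⟩ | ⟨s, hs, h⟩
      · have h1 : j * (a * (a - 1)) ≤ j * (2 * b) := by omega
        have h2 : a * (a - 1) ≤ 2 * b := Nat.le_of_mul_le_mul_left h1 hj
        have h3 : b = (b - a * (a - 1) / 2) + a * (a - 1) / 2 := by omega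
        exact ⟨_, h3, H780.partCond_linear h3 hj hjb h⟩
      · exact ⟨s, hs, h⟩
    exact ⟨fun x hx h0 => H780.injOn_part hs lam hc x hx h0, H780.plethMult_part hs lam hc⟩
  · exact ModP.injOn_mid ha hn hp (d := p - 1) (by omega) (by omega) (by omega) lam hmid hend x
      hx h0
  · exact ModP.foulkes_mid ha hn hp hap b lam hmid (fun i hi _ => hle i hi) hend

end Vale.Agent.Results.P181.PartialRowSums
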