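import Vale.Agent.P181.R2.H280.NFinal
import Vale.Agent.P181.H421.Defs

set_option autoImplicit false

open Vale.Agent.P181 Vale.Agent.P181.H421 Vale.Agent.P181.H280

namespace Vale.Agent.Results.P181.TailSlopes

/-- **Foulkes' conjecture for partitions with up to `s b` boxes below the second row.** For
`a ≥ 2`, every `b`, `n` and `V = ℂ^(n+2)`, the canonical (Foulkes-Howe) map
`Sym^a(Sym^b V) → Sym^b(Sym^a V)` is injective on the highest weight vectors of weight `λ` whenever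
`λ_3 + ⋯ + λ_(n+2) + (a - 1) (2 binom(s + n, n + 1) - 1) ≤ s b` for some `s ≥ 2`, and then the
multiplicity of `S_λ V` in `Sym^a(Sym^b V)` is at most its multiplicity in `Sym^b(Sym^a V)`. -/
theorem result (a b n : ℕ) (ha : 2 ≤ a) :
    ∃ Ψ : Pleth a b (n + 2) →ₗ[ℂ] Pleth b a (n + 2),
      (∀ v : Fin a → Fin b → (Fin (n + 2) → ℂ), Ψ (prodRows v) = sumCols v) ∧ IsEquivariant Ψ ∧
      ∀ lam : Fin (n + 2) → ℕ,
        (∃ s, 2 ≤ s ∧ (∑ i : Fin n, lam i.succ.succ) +
          (a - 1) * (2 * Nat.choose (s + n) (n + 1) - 1) ≤ s * b) →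
        InjOnHW Ψ lam ∧ plethMult a b (n + 2) lam ≤ plethMult b a (n + 2) lam := by
  refine ⟨foulkesHowe a b (Fin (n + 2) → ℂ), foulkesHowe_tprod a b,
    fun g x => LinearMap.congr_fun (foulkesHowe_equivariant a b (Matrix.toLin' g)) x,
    fun lam hlam => ?_⟩
  obtain ⟨s, hs, h⟩ := hlam
  have hK : TN.KK n a b (∑ i : Fin n, lam i.succ.succ) :=
    TN.KK_all (N := a - 1) (by omega) (by omega) ⟨s, by omega, h⟩
  exact ⟨fun x hx h0 => TN.injOn_of_KK lam hK x hx h0, TN.plethMult_of_KK lam hK⟩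

end Vale.Agent.Results.P181.TailSlopes
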