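import Vale.Agent.P181.R2.H151.Final2
import Vale.Agent.P181.R2.H151.Union
import Vale.Agent.P181.R2.H553.CFinal
import Vale.Agent.P181.H534.HW3
import Vale.Agent.P181.H421.Defs

set_option autoImplicit false

open Vale.Agent.P181 Vale.Agent.P181.H421 Vale.Agent.P181.H280

namespace Vale.Agent.Results.P181.ThreeRowsBelowSquare

/-- **Foulkes' conjecture for three rows below the square.** For `a ≥ 2`, every `b` and `V = ℂ³`,
the canonical (Foulkes-Howe) map `Sym^a(Sym^b V) → Sym^b(Sym^a V)` is injective on the highest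
weight vectors of weight `λ = (λ₁, λ₂, λ₃)`, and the multiplicity of `S_λ V` in `Sym^a(Sym^b V)` is
at most its multiplicity in `Sym^b(Sym^a V)`: for all `λ` as soon as `9 a ^ 7 ≤ b ^ 4`, and for all
`λ` whose third row lies below a function of `b` that is first quadratic (`T`) and then cubic.
The inequality of the multiplicities holds for all partitions `λ` of `a b` with at most three rows
as soon as `b < 2 ^ L`, `15000 L ≤ a` and `1500000 a ^ 5 L ^ 3 ≤ b ^ 4` for some `L ≥ 1`. -/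
theorem result (a b : ℕ) (ha : 2 ≤ a) :
    (∃ Ψ : Pleth a b 3 →ₗ[ℂ] Pleth b a 3,
      (∀ v : Fin a → Fin b → (Fin 3 → ℂ), Ψ (prodRows v) = sumCols v) ∧ IsEquivariant Ψ ∧
      ∀ lam : Fin 3 → ℕ,
        (9 * a ^ 7 ≤ b ^ 4 ∨
          ∃ m c T : ℕ, 1 ≤ m ∧ c ≤ b ∧ 4 * T + (3 * (m * (m + 1)) - 2) * a ≤ 4 * (m * c) ∧
            (lam 2 ≤ T ∨
              (a * (a - 1) ≤ 2 * T ∧ 2 * a ≤ c ∧
                2 * (a * (a - 1)) * (c + 2 * a - 2) <
                  (6 * (T + 1) - a * (a - 1)) * (c + 4 - a) ∧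
                6 * lam 2 * ((c + 2 * a) * (c + 2 * a - 1) * (c + 2 * a - 2)) <
                  (6 * (T + 1) - a * (a - 1)) *
                      ((b + 2 * a) * (b + 2 * a - 1) * (b + 2 * a - 2)) +
                    a * (a - 1) * ((c + 2 * a) * (c + 2 * a - 1) * (c + 2 * a - 2))))) →
        InjOnHW Ψ lam ∧ plethMult a b 3 lam ≤ plethMult b a 3 lam) ∧
    ∀ (L : ℕ) (lam : Fin 3 → ℕ), 1 ≤ L → b < 2 ^ L → 15000 * L ≤ a →
      1500000 * a ^ 5 * L ^ 3 ≤ b ^ 4 → lam 0 + lam 1 + lam 2 = a * b → lam 2 ≤ lam 1 →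
      lam 1 ≤ lam 0 → plethMult a b 3 lam ≤ plethMult b a 3 lam := by
  refine ⟨?_, fun L lam hL0 hL haL hb hsum h21 h10 =>
    TM.H151.three_all_of (fun N lam h1 h2 h3 h4 h5 h6 h7 h8 h9 =>
      H553.all_long lam h1 h2 h3 h4 h5 h6 h7 h8 h9) hL haL hL0 hb lam hsum h21 h10⟩
  refine ⟨foulkesHowe a b (Fin 3 → ℂ), foulkesHowe_tprod a b,
    fun g x => LinearMap.congr_fun (foulkesHowe_equivariant a b (Matrix.toLin' g)) x,
    fun lam hlam => ?_⟩
  -- the range already covered by the quadratic bound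
  have hq : a * a + 2 * a ≤ 2 * b + 5 →
      InjOnHW (foulkesHowe a b (Fin 3 → ℂ)) lam ∧ plethMult a b 3 lam ≤ plethMult b a 3 lam := by
    intro h
    have hl : a * a + 2 * a + 2 * (∑ i : Fin 0, lam i.succ.succ.succ) ≤ 2 * b + 5 := by
      simpa using h
    exact ⟨fun x hx h0 => H534.foulkesHowe_injOn3 (n := 0) ha lam hl x hx h0,
      H534.plethMult_le3 (n := 0) ha lam hl⟩
  have hsum : ∑ i : Fin 1, lam i.succ.succ = lam 2 := by
    rw [Fin.sum_univ_one]; rfl
  have hkk : TM.KK2 1 a b (lam 2) →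
      InjOnHW (foulkesHowe a b (Fin 3 → ℂ)) lam ∧ plethMult a b 3 lam ≤ plethMult b a 3 lam := by
    intro hK
    rw [← hsum] at hK
    exact ⟨fun x hx h0 => TM.injOn_of_KK2 (n := 1) lam hK x hx h0,
      TM.plethMult_of_KK2 (n := 1) lam hK⟩
  rcases hlam with h | ⟨m, c, T, hm, hcb, hT, h⟩
  · rcases Nat.lt_or_ge a 131 with h1 | h1
    · refine hq ?_
      have h2 := R2.H424.RecW.small (a := a) (b := b) (by omega) h
      rw [pow_two] at h2
      omega
    · exact hkk (TM.KK2_three' h1 h _)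
  · rcases Nat.lt_or_ge a 3 with h1 | h1
    · obtain rfl : a = 2 := by omega
      refine hq ?_
      have h2 : m * c ≤ m * b := Nat.mul_le_mul_left _ hcb
      have h3 : 2 ≤ b := by
        by_contra hcon
        have h4 : m * b ≤ m * 1 := Nat.mul_le_mul_left _ (by omega)
        have h5 : m * 1 ≤ m * m := Nat.mul_le_mul_left _ hm
        have h6 : 3 * (m * (m + 1)) = 3 * (m * m) + 3 * m := by ring
        omega
      omega
    · exact hkk (TM.KK2_cubic' h1 hm hcb hT h)

end Vale.Agent.Results.P181.ThreeRowsBelowSquare
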